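import Vale.Agent.P245.H895.QuadR
import Vale.Agent.P245.H607.Ext

open MeasureTheory Filter Topology Set
open scoped NNReal ENNReal ContDiff
open Vale.Agent.P227.M Vale.Agent.P254

namespace Vale.Agent.P245.H471

variable {n : ℕ} {μ : Measure (EuclideanSpace ℝ (Fin n))}

/-- mollification keeps the Lipschitz constant -/
theorem mol_lip {G : EuclideanSpace ℝ (Fin n) → ℝ} (hGc : Continuous G) {L B : ℝ} (hL : 0 ≤ L)
    (hG : ∀ x y, |G x - G y| ≤ L * ‖x - y‖) (hB : ∀ x, |G x| ≤ B) (m : ℕ)
    (x y : EuclideanSpace ℝ (Fin n)) :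
    |H607.mol G m x - H607.mol G m y| ≤ L * ‖x - y‖ := by
  have hi : ∀ z, Integrable (fun t => (H607.bmp n m).normed volume t * G (z - t)) := by
    intro z
    refine ((H607.bmp n m).integrable_normed.mul_const B).mono'
      ((H607.bmp n m).continuous_normed.mul (by fun_prop)).aestronglyMeasurable
      (Eventually.of_forall fun t => ?_)
    rw [Real.norm_eq_abs, abs_mul, abs_of_nonneg ((H607.bmp n m).nonneg_normed t)]
    exact mul_le_mul_of_nonneg_left (hB _) ((H607.bmp n m).nonneg_normed t)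
  rw [H607.mol_apply, H607.mol_apply, ← integral_sub (hi x) (hi y)]
  calc |∫ t, ((H607.bmp n m).normed volume t * G (x - t) - (H607.bmp n m).normed volume t * G (y - t))|
      ≤ ∫ t, |(H607.bmp n m).normed volume t * G (x - t) - (H607.bmp n m).normed volume t * G (y - t)| :=
        abs_integral_le_integral_abs
    _ ≤ ∫ t, (H607.bmp n m).normed volume t * (L * ‖x - y‖) := by
        refine integral_mono_of_nonneg (ae_of_all _ fun t => abs_nonneg _)
          (((H607.bmp n m).integrable_normed).mul_const _) (ae_of_all _ fun t => ?_)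
        simp only
        rw [← mul_sub, abs_mul, abs_of_nonneg ((H607.bmp n m).nonneg_normed t)]
        refine mul_le_mul_of_nonneg_left ((hG _ _).trans (le_of_eq ?_))
          ((H607.bmp n m).nonneg_normed t)
        congr 2
        abel
    _ = L * ‖x - y‖ := by rw [integral_mul_const, (H607.bmp n m).integral_normed, one_mul]

/-- Poincaré inequality for bounded Lipschitz functions -/
theorem var_lip {C0 : ℝ} (hC0 : 0 < C0) (hK : Q895.KLS C0) [IsProbabilityMeasure μ]
    (hlc : HasLogConcaveDensity μ) {a : ℝ} (ha : 0 < a) (hsub : LinearlySubgaussian μ a)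
    {G : EuclideanSpace ℝ (Fin n) → ℝ} {L B : ℝ} (hL : 0 ≤ L)
    (hG : ∀ x y, |G x - G y| ≤ L * ‖x - y‖) (hB : ∀ x, |G x| ≤ B) :
    (∫ x, G x ^ 2 ∂μ) - (∫ x, G x ∂μ) ^ 2 ≤ C0 * a ^ 2 * L ^ 2 := by
  have hGl : LipschitzWith L.toNNReal G := LipschitzWith.of_dist_le_mul fun x y => by
    rw [Real.dist_eq, dist_eq_norm, Real.coe_toNNReal _ hL]; exact hG x y
  have hGc : Continuous G := hGl.continuous
  have hB0 : 0 ≤ B := (abs_nonneg _).trans (hB 0)
  have hsm : ∀ m, ContDiff ℝ ∞ (H607.mol G m) := fun m => H607.mol_contDiff hGc m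
  have hfd : ∀ m x, ‖fderiv ℝ (H607.mol G m) x‖ ≤ L := by
    intro m x
    have h1 : LipschitzWith L.toNNReal (H607.mol G m) := LipschitzWith.of_dist_le_mul fun x y => by
      rw [Real.dist_eq, dist_eq_norm, Real.coe_toNNReal _ hL]
      exact mol_lip hGc hL hG hB m x y
    have h2 := norm_fderiv_le_of_lipschitz ℝ h1 (x₀ := x)
    rwa [Real.coe_toNNReal _ hL] at h2
  have hk : ∀ m, (∫ x, H607.mol G m x ^ 2 ∂μ) - (∫ x, H607.mol G m x ∂μ) ^ 2 ≤
      C0 * a ^ 2 * L ^ 2 := by
    intro m
    have hGr : Gr (H607.mol G m) := by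
      refine ⟨(hsm m).continuous, B, 0, hB0, fun x => ?_⟩
      rw [pow_zero, mul_one]
      exact H607.mol_bound hGc hB m x
    have hGp : ∀ i, Gr (pd i (H607.mol G m)) := by
      intro i
      refine ⟨((hsm m).continuous_fderiv (by simp)).clm_apply continuous_const, L, 0, hL,
        fun x => ?_⟩
      rw [pow_zero, mul_one]
      unfold pd
      have h3 := (fderiv ℝ (H607.mol G m) x).le_opNorm (ei i)
      have h4 : ‖(ei i : EuclideanSpace ℝ (Fin n))‖ = 1 := by
        unfold ei
        simp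
      rw [h4, mul_one, Real.norm_eq_abs] at h3
      exact h3.trans (hfd m x)
    have h1 := Q895.kls_sub hC0 hK hlc ha hsub (hsm m) hGr hGp
    refine h1.trans ?_
    refine mul_le_mul_of_nonneg_left ?_ (by positivity)
    have hgb : ∀ x, ‖gradient (H607.mol G m) x‖ ^ 2 ≤ L ^ 2 := by
      intro x
      rw [H607.norm_grad]
      exact pow_le_pow_left₀ (norm_nonneg _) (hfd m x) 2
    calc ∫ x, ‖gradient (H607.mol G m) x‖ ^ 2 ∂μ ≤ ∫ x, L ^ 2 ∂μ :=
          integral_mono_of_nonneg (ae_of_all _ fun x => by positivity) (integrable_const _)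
            (ae_of_all _ hgb)
      _ = L ^ 2 := by simp
  have l1 : Tendsto (fun m => ∫ x, H607.mol G m x ^ 2 ∂μ) atTop (𝓝 (∫ x, G x ^ 2 ∂μ)) := by
    refine tendsto_integral_of_dominated_convergence (fun _ => B ^ 2)
      (fun m => ((hsm m).continuous.pow 2).aestronglyMeasurable) (integrable_const _)
      (fun m => ae_of_all _ fun x => ?_) (ae_of_all _ fun x => (H607.mol_tendsto hGc x).pow 2)
    rw [Real.norm_eq_abs, abs_pow]
    exact pow_le_pow_left₀ (abs_nonneg _) (H607.mol_bound hGc hB m x) 2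
  have l2 : Tendsto (fun m => ∫ x, H607.mol G m x ∂μ) atTop (𝓝 (∫ x, G x ∂μ)) := by
    refine tendsto_integral_of_dominated_convergence (fun _ => B)
      (fun m => (hsm m).continuous.aestronglyMeasurable) (integrable_const _)
      (fun m => ae_of_all _ fun x => ?_) (ae_of_all _ fun x => H607.mol_tendsto hGc x)
    rw [Real.norm_eq_abs]
    exact H607.mol_bound hGc hB m x
  exact le_of_tendsto' (l1.sub (l2.pow 2)) hk

end Vale.Agent.P245.H471
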