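import Vale.Agent.P245.Defs
import Vale.Agent.P254.Bdl.B7

open MeasureTheory Set
open scoped ENNReal

namespace Vale.Agent.P245.H471

variable {n : ℕ} {μ : Measure (EuclideanSpace ℝ (Fin n))}

/-- log-concave measures in the sense of Borell -/
theorem borell (hlc : HasLogConcaveDensity μ) {s : ℝ} (hs0 : 0 < s) (hs1 : s < 1)
    {A B S : Set (EuclideanSpace ℝ (Fin n))} (hA : MeasurableSet A) (hB : MeasurableSet B)
    (hS : MeasurableSet S) (h : ∀ x ∈ A, ∀ y ∈ B, (1 - s) • x + s • y ∈ S) :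
    μ A ^ (1 - s) * μ B ^ s ≤ μ S := by
  obtain ⟨ρ, hρ, hρ0, hc, rfl⟩ := hlc
  have hs1' : 0 < 1 - s := by linarith
  have hvp := PiLp.volume_preserving_toLp (Fin n)
  have key : ∀ W : Set (EuclideanSpace ℝ (Fin n)), MeasurableSet W →
      (volume : Measure (EuclideanSpace ℝ (Fin n))).withDensity
        (fun x => ENNReal.ofReal (ρ x)) W =
      ∫⁻ x : Fin n → ℝ, W.indicator (fun x => ENNReal.ofReal (ρ x)) (WithLp.toLp 2 x) := by
    intro W hW
    rw [withDensity_apply _ hW, ← lintegral_indicator hW]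
    exact (hvp.lintegral_comp (hρ.ennreal_ofReal.indicator hW)).symm
  have hm : ∀ W : Set (EuclideanSpace ℝ (Fin n)), MeasurableSet W →
      Measurable fun x : Fin n → ℝ =>
        W.indicator (fun x => ENNReal.ofReal (ρ x)) (WithLp.toLp 2 x : EuclideanSpace ℝ (Fin n)) :=
    fun W hW => (hρ.ennreal_ofReal.indicator hW).comp hvp.measurable
  rw [key A hA, key B hB, key S hS]
  refine P150.F.PL.prekopa_leindler hs0 hs1 (hm A hA) (hm B hB) (hm S hS) ?_
  intro x y
  obtain ⟨X, hX⟩ : ∃ X : EuclideanSpace ℝ (Fin n), X = WithLp.toLp 2 x := ⟨_, rfl⟩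
  obtain ⟨Y, hY⟩ : ∃ Y : EuclideanSpace ℝ (Fin n), Y = WithLp.toLp 2 y := ⟨_, rfl⟩
  have hXY : (WithLp.toLp 2 ((1 - s) • x + s • y) : EuclideanSpace ℝ (Fin n)) =
      (1 - s) • X + s • Y := by rw [hX, hY]; rfl
  rw [hXY, ← hX, ← hY]
  by_cases hxA : X ∈ A
  swap
  · rw [indicator_of_notMem hxA, ENNReal.zero_rpow_of_pos hs1', zero_mul]; exact zero_le
  by_cases hyB : Y ∈ B
  swap
  · rw [indicator_of_notMem hyB, ENNReal.zero_rpow_of_pos hs0, mul_zero]; exact zero_le
  rw [indicator_of_mem hxA, indicator_of_mem hyB, indicator_of_mem (h X hxA Y hyB)]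
  rcases (hρ0 X).eq_or_lt with h0 | hx
  · rw [← h0, ENNReal.ofReal_zero, ENNReal.zero_rpow_of_pos hs1', zero_mul]; exact zero_le
  rcases (hρ0 Y).eq_or_lt with h0 | hy
  · rw [← h0, ENNReal.ofReal_zero, ENNReal.zero_rpow_of_pos hs0, mul_zero]; exact zero_le
  have hz : (1 - s) • X + s • Y ∈ {x | 0 < ρ x} := hc.1 hx hy hs1'.le hs0.le (by ring)
  have hl := hc.2 hx hy hs1'.le hs0.le (by ring : (1 - s) + s = 1)
  simp only [smul_eq_mul] at hl
  rw [ENNReal.ofReal_rpow_of_pos hx, ENNReal.ofReal_rpow_of_pos hy,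
    ← ENNReal.ofReal_mul (Real.rpow_nonneg hx.le _)]
  refine ENNReal.ofReal_le_ofReal ?_
  rw [Real.rpow_def_of_pos hx, Real.rpow_def_of_pos hy, ← Real.exp_add]
  rw [← Real.le_log_iff_exp_le hz]
  linarith

/-- the upper tail function of a concave function is log-concave -/
theorem tail_logconcave [IsProbabilityMeasure μ] (hlc : HasLogConcaveDensity μ)
    {F : EuclideanSpace ℝ (Fin n) → ℝ} (hF : Continuous F) (hc : ConcaveOn ℝ univ F)
    {r0 m t : ℝ} (hm : 0 < m) (ht : 0 ≤ t)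
    (hp : 0 < μ.real {x | r0 + m + t ≤ F x}) :
    t * (-Real.log (μ.real {x | r0 + m ≤ F x}) - -Real.log (μ.real {x | r0 ≤ F x})) ≤
      m * (-Real.log (μ.real {x | r0 + m + t ≤ F x}) - -Real.log (μ.real {x | r0 + m ≤ F x})) := by
  have hms : ∀ r : ℝ, MeasurableSet {x | r ≤ F x} := fun r =>
    (isClosed_le continuous_const hF).measurableSet
  have hp1 : 0 < μ.real {x | r0 + m ≤ F x} :=
    hp.trans_le (measureReal_mono (fun x hx => by
      simp only [mem_setOf_eq] at hx ⊢; linarith) (measure_ne_top _ _))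
  have hp0 : 0 < μ.real {x | r0 ≤ F x} :=
    hp.trans_le (measureReal_mono (fun x hx => by
      simp only [mem_setOf_eq] at hx ⊢; linarith) (measure_ne_top _ _))
  rcases ht.eq_or_lt with h0 | ht0
  · rw [← h0]; simp
  have hmt : 0 < m + t := by linarith
  obtain ⟨s, hs⟩ : ∃ s, s = m / (m + t) := ⟨_, rfl⟩
  have hs0 : 0 < s := by rw [hs]; positivity
  have hs1 : s < 1 := by rw [hs, div_lt_one hmt]; linarith
  have hsm : s * (m + t) = m := by rw [hs]; field_simp
  have hB := borell hlc hs0 hs1 (hms r0) (hms (r0 + m + t)) (hms (r0 + m))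
    (fun x hx y hy => by
      simp only [mem_setOf_eq] at hx hy ⊢
      have h1 := hc.2 (mem_univ x) (mem_univ y) (by linarith : (0:ℝ) ≤ 1 - s) hs0.le (by ring)
      simp only [smul_eq_mul] at h1
      have h2 : (1 - s) * r0 ≤ (1 - s) * F x := mul_le_mul_of_nonneg_left hx (by linarith)
      have h3 : s * (r0 + m + t) ≤ s * F y := mul_le_mul_of_nonneg_left hy hs0.le
      nlinarith)
  have hB2 : μ.real {x | r0 ≤ F x} ^ (1 - s) * μ.real {x | r0 + m + t ≤ F x} ^ s ≤
      μ.real {x | r0 + m ≤ F x} := by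
    have h4 := ENNReal.toReal_mono (measure_ne_top _ _) hB
    rw [ENNReal.toReal_mul, ← ENNReal.toReal_rpow, ← ENNReal.toReal_rpow] at h4
    exact h4
  have hlog := Real.log_le_log (by positivity) hB2
  rw [Real.log_mul (by positivity) (by positivity), Real.log_rpow hp0, Real.log_rpow hp] at hlog
  have e1 : t = (1 - s) * (m + t) := by rw [sub_mul, hsm]; ring
  have h5 := mul_le_mul_of_nonneg_left hlog hmt.le
  have h6 : (m + t) * ((1 - s) * Real.log (μ.real {x | r0 ≤ F x}) +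
      s * Real.log (μ.real {x | r0 + m + t ≤ F x})) =
      t * Real.log (μ.real {x | r0 ≤ F x}) + m * Real.log (μ.real {x | r0 + m + t ≤ F x}) := by
    calc _ = ((1 - s) * (m + t)) * Real.log (μ.real {x | r0 ≤ F x}) +
          (s * (m + t)) * Real.log (μ.real {x | r0 + m + t ≤ F x}) := by ring
      _ = _ := by rw [← e1, hsm]
  rw [h6] at h5
  linarith

end Vale.Agent.P245.H471
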