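import Mathlib

open Real

namespace Vale.Agent.P245.H471

/-- The two cases of the growth argument. `T` is the convex cost along a ray. -/
theorem growth {T0 Tm Tt K m t : ℝ} (hK : 0 < K) (hm : 0 < m) (ht : 0 ≤ t)
    (h0m : T0 ≤ Tm) (h0 : T0 ≤ 1)
    (hconv : t * (Tm - T0) ≤ m * (Tt - Tm))
    (gm : m ^ 2 / (2 * K) - 4 ≤ Tm) (gt : (m + t) ^ 2 / (2 * K) - 4 ≤ Tt) :
    t ^ 2 / (4 * K) - 5 ≤ Tt - Tm := by
  have h2 : t ^ 2 / (2 * K) ≤ (m + t) ^ 2 / (2 * K) := by
    apply div_le_div_of_nonneg_right _ (by positivity)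
    nlinarith
  have e4 : t ^ 2 / (4 * K) = t ^ 2 / (2 * K) / 2 := by field_simp; ring
  have hpos : 0 ≤ t ^ 2 / (2 * K) := by positivity
  rcases le_total m t with hmt | htm
  · have h3 : m * (Tm - T0) ≤ m * (Tt - Tm) := by
      refine le_trans ?_ hconv
      exact mul_le_mul_of_nonneg_right hmt (by linarith)
    have h4 : Tm - T0 ≤ Tt - Tm := le_of_mul_le_mul_left h3 hm
    rw [e4]
    linarith
  · -- `t ≤ m`
    have h3 : t * (m ^ 2 / (2 * K) - 5) ≤ t * (Tm - T0) :=
      mul_le_mul_of_nonneg_left (by linarith) ht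
    have h4 : t * (m ^ 2 / (2 * K) - 5) ≤ m * (Tt - Tm) := h3.trans hconv
    have h5 : m * (t ^ 2 / (2 * K) - 5) ≤ t * (m ^ 2 / (2 * K) - 5) := by
      have h6 : m * (t ^ 2 / (2 * K)) ≤ t * (m ^ 2 / (2 * K)) := by
        have : m * (t ^ 2 / (2 * K)) = (t * m) * t / (2 * K) := by ring
        rw [this]
        have : t * (m ^ 2 / (2 * K)) = (t * m) * m / (2 * K) := by ring
        rw [this]
        apply div_le_div_of_nonneg_right _ (by positivity)
        exact mul_le_mul_of_nonneg_left htm (by positivity)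
      nlinarith
    have h7 : t ^ 2 / (2 * K) - 5 ≤ Tt - Tm := le_of_mul_le_mul_left (h5.trans h4) hm
    rw [e4]
    linarith

end Vale.Agent.P245.H471
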