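import Vale.Agent.P245.H471.MaxC

open MeasureTheory Set Real

namespace Vale.Agent.P245.H471

variable {E : Type*} [MeasurableSpace E] {μ : Measure E}

/-- base point -/
theorem base [IsProbabilityMeasure μ] {F : E → ℝ} {K0 e : ℝ} (hK0 : 0 < K0)
    (hms : MeasurableSet {x | e - 4 * √K0 ≤ F x})
    (hFi : Integrable F μ) (he : ∫ x, F x ∂μ = e)
    (hei : Integrable (fun x => exp ((√K0)⁻¹ * (F x - e))) μ)
    (hexp : ∫ x, exp ((√K0)⁻¹ * (F x - e)) ∂μ ≤ exp (1 / 4)) :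
    2 / 3 ≤ μ.real {x | e - 4 * √K0 ≤ F x} := by
  obtain ⟨q, hq⟩ : ∃ q, q = √K0 := ⟨_, rfl⟩
  have hq0 : 0 < q := by rw [hq]; exact Real.sqrt_pos.2 hK0
  rw [← hq] at hms hei hexp ⊢
  obtain ⟨S, hS⟩ : ∃ S, S = {x | e - 4 * q ≤ F x} := ⟨_, rfl⟩
  rw [← hS] at hms ⊢
  have hpt : ∀ x, F x - e + 4 * q * (Sᶜ.indicator (fun _ => (1:ℝ)) x) ≤
      q * exp (q⁻¹ * (F x - e)) := by
    intro x
    have h1 : F x - e ≤ q * exp (q⁻¹ * (F x - e)) := by
      have h2 : q⁻¹ * (F x - e) ≤ exp (q⁻¹ * (F x - e)) := by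
        have := Real.add_one_le_exp (q⁻¹ * (F x - e)); linarith
      have h3 := mul_le_mul_of_nonneg_left h2 hq0.le
      rwa [mul_inv_cancel_left₀ hq0.ne'] at h3
    by_cases hx : x ∈ S
    · rw [indicator_of_notMem (by simpa using hx)]
      linarith
    · rw [indicator_of_mem (by simpa using hx)]
      have h4 : F x < e - 4 * q := by
        rw [hS] at hx
        by_contra h
        exact hx (not_lt.1 h)
      have h5 : 0 < q * exp (q⁻¹ * (F x - e)) := by positivity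
      linarith
  have i1 : Integrable (Sᶜ.indicator (fun _ => (1:ℝ))) μ :=
    (integrable_const (1:ℝ)).indicator hms.compl
  have i2 : Integrable (fun x => F x - e) μ := hFi.sub (integrable_const e)
  have h6 := integral_mono (i2.add (i1.const_mul (4 * q))) (hei.const_mul q) hpt
  have h7 : ∫ x, (F x - e + 4 * q * Sᶜ.indicator (fun _ => (1:ℝ)) x) ∂μ = 4 * q * μ.real Sᶜ := by
    rw [integral_add i2 (i1.const_mul (4 * q)), integral_sub hFi (integrable_const e), he,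
      integral_const_mul, integral_indicator hms.compl, setIntegral_const]
    simp
  have h8 : ∫ x, q * exp (q⁻¹ * (F x - e)) ∂μ ≤ q * exp (1 / 4) := by
    rw [integral_const_mul]
    exact mul_le_mul_of_nonneg_left hexp hq0.le
  have h9 : exp (1 / 4 : ℝ) ≤ 4 / 3 := by
    have h10 := Real.one_sub_le_exp_neg (1 / 4 : ℝ)
    have h11 : exp (1 / 4 : ℝ) * exp (-(1 / 4)) = 1 := by rw [← exp_add]; simp
    nlinarith [exp_pos (1 / 4 : ℝ)]
  have h12 : μ.real Sᶜ = 1 - μ.real S := probReal_compl_eq_one_sub hms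
  have h13 : 4 * q * μ.real Sᶜ ≤ q * (4 / 3) := by
    rw [← h7]
    exact h6.trans (h8.trans (mul_le_mul_of_nonneg_left h9 hq0.le))
  rw [h12] at h13
  have h14 : q * (4 * (1 - μ.real S)) ≤ q * (4 / 3) := by linarith
  have h15 := le_of_mul_le_mul_left h14 hq0
  linarith

theorem low [IsProbabilityMeasure μ] {F : E → ℝ} {K0 e : ℝ} (hK0 : 0 < K0)
    (htail : ∀ t : ℝ, 0 ≤ t → μ.real {x | e + t ≤ F x} ≤ exp (-(t ^ 2 / K0)))
    {u : ℝ} (hu : 0 ≤ u)
    (hp : 0 < μ.real {x | e - 4 * √K0 + u ≤ F x}) :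
    u ^ 2 / (2 * (4 * K0)) - 4 ≤ -Real.log (μ.real {x | e - 4 * √K0 + u ≤ F x}) := by
  obtain ⟨q, hq⟩ : ∃ q, q = √K0 := ⟨_, rfl⟩
  have hq0 : 0 < q := by rw [hq]; exact Real.sqrt_pos.2 hK0
  have hqq : K0 = q ^ 2 := by rw [hq, Real.sq_sqrt hK0.le]
  rw [← hq] at hp ⊢
  rw [hqq] at htail ⊢
  rcases le_total u (4 * q) with h | h
  · have h1 : Real.log (μ.real {x | e - 4 * q + u ≤ F x}) ≤ 0 :=
      Real.log_nonpos hp.le measureReal_le_one
    have h2 : u ^ 2 / (2 * (4 * q ^ 2)) ≤ 2 := by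
      rw [div_le_iff₀ (by positivity)]
      nlinarith
    linarith
  · have h1 := htail (u - 4 * q) (by linarith)
    have e1 : e + (u - 4 * q) = e - 4 * q + u := by ring
    rw [e1] at h1
    have h2 := Real.log_le_log hp h1
    rw [Real.log_exp] at h2
    have h4 : (u - 4 * q) ^ 2 / q ^ 2 - (u ^ 2 / (2 * (4 * q ^ 2)) - 4) =
        (7 * u ^ 2 - 64 * u * q + 160 * q ^ 2) / (8 * q ^ 2) := by
      field_simp
      ring
    have h5 : 0 ≤ (7 * u ^ 2 - 64 * u * q + 160 * q ^ 2) / (8 * q ^ 2) :=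
      div_nonneg (by nlinarith [sq_nonneg (7 * u - 32 * q), sq_nonneg q]) (by positivity)
    linarith

theorem one [IsProbabilityMeasure μ] {F : E → ℝ} {K0 e : ℝ} (hK0 : 0 < K0)
    (hbase : 2 / 3 ≤ μ.real {x | e - 4 * √K0 ≤ F x})
    (htail : ∀ t : ℝ, 0 ≤ t → μ.real {x | e + t ≤ F x} ≤ exp (-(t ^ 2 / K0)))
    (hlog : ∀ r0 m t : ℝ, 0 < m → 0 ≤ t → 0 < μ.real {x | r0 + m + t ≤ F x} →
      t * (-Real.log (μ.real {x | r0 + m ≤ F x}) - -Real.log (μ.real {x | r0 ≤ F x})) ≤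
      m * (-Real.log (μ.real {x | r0 + m + t ≤ F x}) - -Real.log (μ.real {x | r0 + m ≤ F x})))
    {R t : ℝ} (hR : e - 4 * √K0 < R) (ht : 0 ≤ t) :
    μ.real {x | R + t ≤ F x} ≤ exp (5 - t ^ 2 / (16 * K0)) * μ.real {x | R ≤ F x} := by
  rcases (measureReal_nonneg (μ := μ) (s := {x | R + t ≤ F x})).eq_or_lt with h0 | hp
  · rw [← h0]
    exact mul_nonneg (exp_pos _).le measureReal_nonneg
  obtain ⟨r0, hr0⟩ : ∃ r0, r0 = e - 4 * √K0 := ⟨_, rfl⟩
  obtain ⟨m, hm⟩ : ∃ m, m = R - r0 := ⟨_, rfl⟩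
  have hm0 : 0 < m := by rw [hm, hr0]; linarith
  have hRm : R = r0 + m := by rw [hm]; ring
  rw [hRm] at hp ⊢
  have hpm : 0 < μ.real {x | r0 + m ≤ F x} :=
    hp.trans_le (measureReal_mono (fun x hx => by
      simp only [mem_setOf_eq] at hx ⊢; linarith) (measure_ne_top _ _))
  have hlow : ∀ u, 0 ≤ u → 0 < μ.real {x | r0 + u ≤ F x} →
      u ^ 2 / (2 * (4 * K0)) - 4 ≤ -Real.log (μ.real {x | r0 + u ≤ F x}) := by
    intro u hu hpu
    rw [hr0] at hpu ⊢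
    exact low hK0 htail hu hpu
  have hp0 : 2 / 3 ≤ μ.real {x | r0 ≤ F x} := by rw [hr0]; exact hbase
  have h0m : -Real.log (μ.real {x | r0 ≤ F x}) ≤ -Real.log (μ.real {x | r0 + m ≤ F x}) := by
    apply neg_le_neg
    exact Real.log_le_log hpm (measureReal_mono (fun x hx => by
      simp only [mem_setOf_eq] at hx ⊢; linarith) (measure_ne_top _ _))
  have h00 : -Real.log (μ.real {x | r0 ≤ F x}) ≤ 1 := by
    have h1 := Real.one_sub_inv_le_log_of_pos (by linarith : 0 < μ.real {x | r0 ≤ F x})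
    have h2 : (μ.real {x | r0 ≤ F x})⁻¹ ≤ (2 / 3 : ℝ)⁻¹ := inv_anti₀ (by norm_num) hp0
    have h3 : ((2 / 3 : ℝ))⁻¹ = 3 / 2 := by norm_num
    rw [h3] at h2
    linarith
  have hgt : (m + t) ^ 2 / (2 * (4 * K0)) - 4 ≤ -Real.log (μ.real {x | r0 + m + t ≤ F x}) := by
    have e1 : r0 + m + t = r0 + (m + t) := by ring
    rw [e1] at hp ⊢
    exact hlow (m + t) (by linarith) hp
  have hg := growth (by positivity : 0 < 4 * K0) hm0 ht h0m h00 (hlog r0 m t hm0 ht hp)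
    (hlow m hm0.le hpm) hgt
  have e4 : t ^ 2 / (4 * (4 * K0)) = t ^ 2 / (16 * K0) := by
    congr 1
    ring
  rw [e4] at hg
  have h5 : Real.log (μ.real {x | r0 + m + t ≤ F x}) ≤
      (5 - t ^ 2 / (16 * K0)) + Real.log (μ.real {x | r0 + m ≤ F x}) := by linarith
  have h6 := Real.exp_le_exp.2 h5
  rw [Real.exp_log hp, Real.exp_add, Real.exp_log hpm] at h6
  exact h6

/-- the sum of the probabilities at the first level -/
theorem sums [IsProbabilityMeasure μ] {N : ℕ} {F : Fin N → E → ℝ} {M a V : ℝ} (ha : 0 < a)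
    (hFm : ∀ i, Measurable (F i)) {G : E → ℝ} (hGi : Integrable G μ)
    (hG2 : Integrable (fun x => G x ^ 2) μ)
    (hG0 : ∀ x, (∀ i, F i x ≤ M) → G x = 0)
    (hGs : ∀ x, ∑ i, ({y | M + a ≤ F i y}.indicator (fun _ => a ^ 2) x) ≤ G x ^ 2)
    (hM : 1 / 2 ≤ μ.real {x | ∀ i, F i x ≤ M})
    (hV : (∫ x, G x ^ 2 ∂μ) - (∫ x, G x ∂μ) ^ 2 ≤ V) :
    ∑ i, μ.real {x | M + a ≤ F i x} ≤ 2 * V / a ^ 2 := by
  obtain ⟨S, hS⟩ : ∃ S, S = {x | ∀ i, F i x ≤ M} := ⟨_, rfl⟩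
  have hSm : MeasurableSet S := by
    rw [hS, setOf_forall]
    exact MeasurableSet.iInter fun i => measurableSet_le (hFm i) measurable_const
  rw [← hS] at hM
  obtain ⟨J, hJ⟩ : ∃ J, J = ∫ x, G x ∂μ := ⟨_, rfl⟩
  have i1 : Integrable (Sᶜ.indicator (fun _ => (1:ℝ))) μ :=
    (integrable_const (1:ℝ)).indicator hSm.compl
  have hpt : ∀ x, 4 * J * G x - 4 * J ^ 2 * Sᶜ.indicator (fun _ => (1:ℝ)) x ≤ G x ^ 2 := by
    intro x
    by_cases hx : x ∈ S
    · rw [indicator_of_notMem (by simpa using hx)]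
      rw [hS] at hx
      rw [hG0 x hx]
      simp
    · rw [indicator_of_mem (by simpa using hx)]
      nlinarith [sq_nonneg (G x - 2 * J)]
  have h1 := integral_mono ((hGi.const_mul (4 * J)).sub (i1.const_mul (4 * J ^ 2))) hG2 hpt
  have h2 : ∫ x, (4 * J * G x - 4 * J ^ 2 * Sᶜ.indicator (fun _ => (1:ℝ)) x) ∂μ =
      4 * J * J - 4 * J ^ 2 * μ.real Sᶜ := by
    rw [integral_sub (hGi.const_mul (4 * J)) (i1.const_mul (4 * J ^ 2)), integral_const_mul,
      integral_const_mul, integral_indicator hSm.compl, setIntegral_const, ← hJ]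
    simp
  have h3 : μ.real Sᶜ = 1 - μ.real S := probReal_compl_eq_one_sub hSm
  have h4 : 2 * J ^ 2 ≤ ∫ x, G x ^ 2 ∂μ := by
    have h5 : 4 * J * J - 4 * J ^ 2 * μ.real Sᶜ ≤ ∫ x, G x ^ 2 ∂μ := by rw [← h2]; exact h1
    have h6 : J ^ 2 * μ.real Sᶜ ≤ J ^ 2 * (1 / 2) :=
      mul_le_mul_of_nonneg_left (by rw [h3]; linarith) (sq_nonneg J)
    nlinarith
  rw [← hJ] at hV
  have h7 : ∫ x, G x ^ 2 ∂μ ≤ 2 * V := by linarith
  have hms : ∀ i, MeasurableSet {y | M + a ≤ F i y} := fun i =>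
    measurableSet_le measurable_const (hFm i)
  have i3 : ∀ i, Integrable ({y | M + a ≤ F i y}.indicator (fun _ => a ^ 2)) μ := fun i =>
    (integrable_const (a ^ 2)).indicator (hms i)
  have h8 := integral_mono (integrable_finsetSum Finset.univ fun i _ => i3 i) hG2 hGs
  have h9 : ∫ x, ∑ i, ({y | M + a ≤ F i y}.indicator (fun _ => a ^ 2) x) ∂μ =
      a ^ 2 * ∑ i, μ.real {x | M + a ≤ F i x} := by
    rw [integral_finsetSum _ fun i _ => i3 i, Finset.mul_sum]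
    refine Finset.sum_congr rfl fun i _ => ?_
    rw [integral_indicator (hms i), setIntegral_const, smul_eq_mul, mul_comm]
  rw [le_div_iff₀ (by positivity), mul_comm, ← h9]
  exact h8.trans h7

end Vale.Agent.P245.H471
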