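import Vale.Agent.P245.H471.MaxA
import Vale.Agent.P245.H471.MaxB
import Vale.Agent.P245.H471.MaxD
import Vale.Agent.P245.H847.Tail

open MeasureTheory Set Real

namespace Vale.Agent.P245.H471

variable {n : ℕ} {μ : Measure (EuclideanSpace ℝ (Fin n))}

theorem clip_lip (r s M a : ℝ) : |min (max (r - M) 0) a - min (max (s - M) 0) a| ≤ |r - s| := by
  refine (abs_min_sub_min_le_max _ _ _ _).trans ?_
  rw [sub_self, abs_zero]
  refine max_le ?_ (abs_nonneg _)
  refine (abs_max_sub_max_le_abs _ _ _).trans (le_of_eq ?_)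
  congr 1
  ring

/-- Gaussian upper tails and the base point of a concave function -/
theorem conc_up [IsProbabilityMeasure μ] {a C0 : ℝ} (ha : 0 < a) (hC0 : 0 < C0)
    (hK : H607.KLS C0) (hlc : HasLogConcaveDensity μ) (hsub : LinearlySubgaussian μ a)
    {F : EuclideanSpace ℝ (Fin n) → ℝ} (hF : LipschitzWith 1 F) (hc : ConcaveOn ℝ univ F)
    {K0 : ℝ} (hK0 : K0 = 4 * (8 * C0 + 26) * a ^ 2) :
    (∀ t : ℝ, 0 ≤ t → μ.real {x | (∫ y, F y ∂μ) + t ≤ F x} ≤ exp (-(t ^ 2 / K0))) ∧
    2 / 3 ≤ μ.real {x | (∫ y, F y ∂μ) - 4 * √K0 ≤ F x} := by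
  have hK0p : 0 < K0 := by rw [hK0]; positivity
  have hFn : LipschitzWith 1 (fun x => -F x) := by
    refine LipschitzWith.of_dist_le_mul fun x y => ?_
    have := hF.dist_le_mul x y
    rwa [dist_neg_neg]
  have hcn : ConvexOn ℝ univ (fun x => -F x) := hc.neg
  have hcont : Continuous F := hF.continuous
  constructor
  · intro t ht
    have h1 := H847.tail ha hC0 hK hlc hsub hFn hcn ht
    rw [integral_neg, ← hK0] at h1
    refine le_trans (le_of_eq ?_) h1
    congr 1
    ext x
    simp only [mem_setOf_eq]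
    constructor <;> intro h <;> linarith
  · have hint : ∀ s : ℝ, Integrable (fun x => exp (s * (F x - ∫ y, F y ∂μ))) μ := by
      intro s
      have := (H767.tilt_int ha hsub hFn s).mul_const (Real.exp (-s * ∫ y, F y ∂μ))
      refine this.congr (Filter.Eventually.of_forall fun x => ?_)
      simp only
      rw [← Real.exp_add]
      congr 1; ring
    have hFi : Integrable F μ := by
      have h1 := hint 1
      have h2 := hint (-1)
      have h3 : Integrable (fun x => F x - ∫ y, F y ∂μ) μ := by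
        refine (h1.add h2).mono' (by fun_prop) (Filter.Eventually.of_forall fun x => ?_)
        rw [Real.norm_eq_abs, Pi.add_apply]
        refine abs_le.2 ⟨?_, ?_⟩
        · have h4 := Real.add_one_le_exp (-1 * (F x - ∫ y, F y ∂μ))
          have h5 := Real.exp_pos (1 * (F x - ∫ y, F y ∂μ))
          linarith
        · have h4 := Real.add_one_le_exp (1 * (F x - ∫ y, F y ∂μ))
          have h5 := Real.exp_pos (-1 * (F x - ∫ y, F y ∂μ))
          linarith
      have h6 := h3.add (integrable_const (∫ y, F y ∂μ))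
      refine h6.congr (Filter.Eventually.of_forall fun x => ?_)
      simp
    refine base hK0p (isClosed_le continuous_const hcont).measurableSet hFi rfl (hint _) ?_
    have hs : 0 ≤ (√K0)⁻¹ := by positivity
    have h1 := H607.conc ha hC0 hK hlc hsub hFn hcn hs
    have e1 : (8 * C0 + 26) * a ^ 2 * (√K0)⁻¹ ^ 2 = 1 / 4 := by
      rw [inv_pow, Real.sq_sqrt hK0p.le]
      rw [hK0]
      field_simp
    rw [e1, integral_neg] at h1
    refine le_trans (le_of_eq ?_) h1
    refine integral_congr_ae (Filter.Eventually.of_forall fun x => ?_)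
    simp only
    congr 1
    ring

/-- **Maxima of concave functions.** -/
theorem maxima {C0 : ℝ} (hC0 : 0 < C0) (hQ : Q895.KLS C0) (hK : H607.KLS C0)
    [IsProbabilityMeasure μ] (hlc : HasLogConcaveDensity μ) {a : ℝ} (ha : 0 < a)
    (hsub : LinearlySubgaussian μ a) {N : ℕ} {F : Fin N → EuclideanSpace ℝ (Fin n) → ℝ}
    {Γ M : ℝ} (hΓ : 1 ≤ Γ) (hF : ∀ i, LipschitzWith 1 (F i)) (hc : ∀ i, ConcaveOn ℝ univ (F i))
    (hvec : ∀ x y, ∑ i, (min (max (F i x - M) 0) a - min (max (F i y - M) 0) a) ^ 2 ≤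
      Γ * ‖x - y‖ ^ 2)
    (hM : 1 / 2 ≤ μ.real {x | ∀ i, F i x ≤ M}) {t : ℝ} (ht : 0 ≤ t) :
    μ.real {x | ∃ i, M + t ≤ F i x} ≤
      (2 * C0 * exp 6 + 128 * (8 * C0 + 26)) * Γ *
        exp (-(t ^ 2 / ((2 * C0 * exp 6 + 128 * (8 * C0 + 26)) * a ^ 2))) := by
  obtain ⟨K0, hK0⟩ : ∃ K0, K0 = 4 * (8 * C0 + 26) * a ^ 2 := ⟨_, rfl⟩
  have hK0p : 0 < K0 := by rw [hK0]; positivity
  obtain ⟨C, hC⟩ : ∃ C, C = 2 * C0 * exp 6 + 128 * (8 * C0 + 26) := ⟨_, rfl⟩
  have he6 : 0 < 2 * C0 * exp 6 := by positivity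
  have hC2 : 2 ≤ C := by rw [hC]; linarith
  rw [← hC]
  have hCp : 0 < C := by linarith
  have hup := fun i => conc_up ha hC0 hK hlc hsub (hF i) (hc i) hK0
  have hFc : ∀ i, Continuous (F i) := fun i => (hF i).continuous
  rcases lt_or_ge t a with hta | hta
  · -- small `t`
    have h1 : t ^ 2 / (C * a ^ 2) ≤ 1 / C := by
      rw [div_le_div_iff₀ (by positivity) hCp]
      have : t ^ 2 ≤ a ^ 2 := pow_le_pow_left₀ ht hta.le 2
      nlinarith
    have h2 : 1 - 1 / C ≤ exp (-(t ^ 2 / (C * a ^ 2))) := by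
      have := Real.one_sub_le_exp_neg (t ^ 2 / (C * a ^ 2))
      linarith
    have h3 : 1 ≤ C * exp (-(t ^ 2 / (C * a ^ 2))) := by
      have h4 := mul_le_mul_of_nonneg_left h2 hCp.le
      have h5 : C * (1 - 1 / C) = C - 1 := by field_simp
      linarith
    have h6 : 1 ≤ C * Γ * exp (-(t ^ 2 / (C * a ^ 2))) := by
      have h7 : C * Γ * exp (-(t ^ 2 / (C * a ^ 2))) = Γ * (C * exp (-(t ^ 2 / (C * a ^ 2)))) := by
        ring
      rw [h7]
      nlinarith
    exact measureReal_le_one.trans h6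
  · -- the truncated `l_2` norm
    obtain ⟨G, hG⟩ : ∃ G : EuclideanSpace ℝ (Fin n) → ℝ, G = fun x =>
        ‖(WithLp.toLp 2 (fun i => min (max (F i x - M) 0) a) : EuclideanSpace ℝ (Fin N))‖ :=
      ⟨_, rfl⟩
    have hG2e : ∀ x, G x ^ 2 = ∑ i, (min (max (F i x - M) 0) a) ^ 2 := by
      intro x
      rw [hG]
      simp only
      rw [EuclideanSpace.norm_sq_eq]
      simp
    have hGL : ∀ x y, |G x - G y| ≤ √Γ * ‖x - y‖ := by
      intro x y
      rw [hG]
      simp only
      refine (abs_norm_sub_norm_le _ _).trans ?_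
      rw [← WithLp.toLp_sub, EuclideanSpace.norm_eq]
      rw [show √Γ * ‖x - y‖ = √(Γ * ‖x - y‖ ^ 2) by
        rw [Real.sqrt_mul (by linarith), Real.sqrt_sq (norm_nonneg _)]]
      refine Real.sqrt_le_sqrt ((Finset.sum_le_sum fun i _ => ?_).trans (hvec x y))
      simp only [Pi.sub_apply, Real.norm_eq_abs]
      rw [sq_abs]
    have hclip : ∀ i x, 0 ≤ min (max (F i x - M) 0) a ∧ min (max (F i x - M) 0) a ≤ a :=
      fun i x => ⟨le_min (le_max_right _ _) ha.le, min_le_right _ _⟩
    have hG0 : ∀ x, 0 ≤ G x := fun x => by rw [hG]; exact norm_nonneg _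
    have hGb2 : ∀ x, G x ^ 2 ≤ N * a ^ 2 := by
      intro x
      rw [hG2e]
      calc ∑ i, (min (max (F i x - M) 0) a) ^ 2 ≤ ∑ _i : Fin N, a ^ 2 :=
            Finset.sum_le_sum fun i _ => pow_le_pow_left₀ (hclip i x).1 (hclip i x).2 2
        _ = N * a ^ 2 := by simp
    have hGB : ∀ x, |G x| ≤ √(N * a ^ 2) := by
      intro x
      rw [abs_of_nonneg (hG0 x)]
      exact Real.le_sqrt_of_sq_le (hGb2 x)
    have hGc : Continuous G := by
      rw [hG]
      refine continuous_norm.comp ((PiLp.continuous_toLp 2 _).comp ?_)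
      exact continuous_pi fun i => by have := hFc i; fun_prop
    have hGi : Integrable G μ := by
      refine (integrable_const (√(N * a ^ 2))).mono' hGc.aestronglyMeasurable
        (Filter.Eventually.of_forall fun x => ?_)
      rw [Real.norm_eq_abs]; exact hGB x
    have hGi2 : Integrable (fun x => G x ^ 2) μ := by
      refine (integrable_const (N * a ^ 2 : ℝ)).mono' (hGc.pow 2).aestronglyMeasurable
        (Filter.Eventually.of_forall fun x => ?_)
      rw [Real.norm_eq_abs, abs_of_nonneg (sq_nonneg _)]; exact hGb2 x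
    have hvar := var_lip hC0 hQ hlc ha hsub (Real.sqrt_nonneg Γ) hGL hGB
    rw [Real.sq_sqrt (by linarith)] at hvar
    have hsum := sums (μ := μ) ha (fun i => (hFc i).measurable) hGi hGi2
      (fun x hx => by
        have h1 : G x ^ 2 = 0 := by
          rw [hG2e]
          refine Finset.sum_eq_zero fun i _ => ?_
          have h2 : max (F i x - M) 0 = 0 := max_eq_right (by linarith [hx i])
          rw [h2, min_eq_left ha.le]
          simp
        exact pow_eq_zero_iff (two_ne_zero) |>.1 h1)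
      (fun x => by
        rw [hG2e]
        refine Finset.sum_le_sum fun i _ => ?_
        by_cases h1 : x ∈ {y | M + a ≤ F i y}
        · rw [indicator_of_mem h1]
          have h2 : M + a ≤ F i x := h1
          have h3 : min (max (F i x - M) 0) a = a :=
            min_eq_right ((by linarith : a ≤ F i x - M).trans (le_max_left _ _))
          rw [h3]
        · rw [indicator_of_notMem h1]
          positivity) hM hvar
    have hsum2 : ∑ i, μ.real {x | M + a ≤ F i x} ≤ 2 * C0 * Γ := by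
      refine hsum.trans (le_of_eq ?_)
      field_simp
    -- growth
    have hone : ∀ i, μ.real {x | M + t ≤ F i x} ≤
        exp (5 - (t - a) ^ 2 / (16 * K0)) * μ.real {x | M + a ≤ F i x} := by
      intro i
      have hr : (∫ y, F i y ∂μ) - 4 * √K0 < M + a := by
        by_contra hcon
        have hcon' : M + a ≤ (∫ y, F i y ∂μ) - 4 * √K0 := not_lt.1 hcon
        have h1 := (hup i).2
        have h2 : μ.real {x | ∀ i, F i x ≤ M} ≤
            μ.real {x | (∫ y, F i y ∂μ) - 4 * √K0 ≤ F i x}ᶜ := by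
          refine measureReal_mono (fun x hx => ?_) (measure_ne_top _ _)
          intro hx2
          have h3 : (∫ y, F i y ∂μ) - 4 * √K0 ≤ F i x := hx2
          have h4 : F i x ≤ M := hx i
          linarith
        rw [probReal_compl_eq_one_sub
          (isClosed_le continuous_const (hFc i)).measurableSet] at h2
        linarith
      have h5 := one hK0p (hup i).2 (hup i).1
        (fun r0 m t hm ht hp => tail_logconcave hlc (hFc i) (hc i) hm ht hp) hr
        (by linarith : 0 ≤ t - a)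
      have e5 : M + a + (t - a) = M + t := by ring
      rw [e5] at h5
      exact h5
    have hunion : μ.real {x | ∃ i, M + t ≤ F i x} ≤ ∑ i, μ.real {x | M + t ≤ F i x} := by
      rw [setOf_exists]
      exact measureReal_iUnion_fintype_le _
    have hexp : exp (5 - (t - a) ^ 2 / (16 * K0)) ≤ exp 6 * exp (-(t ^ 2 / (C * a ^ 2))) := by
      rw [← Real.exp_add]
      refine Real.exp_le_exp.2 ?_
      have h1 : t ^ 2 / (C * a ^ 2) ≤ t ^ 2 / (32 * K0) := by
        refine div_le_div_of_nonneg_left (sq_nonneg t) (by positivity) ?_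
        rw [hK0, hC]
        nlinarith [mul_nonneg he6.le (sq_nonneg a)]
      have h2 : t ^ 2 / (32 * K0) - (t - a) ^ 2 / (16 * K0) ≤ 1 := by
        have h3 : t ^ 2 / (32 * K0) - (t - a) ^ 2 / (16 * K0) =
            (t ^ 2 - 2 * (t - a) ^ 2) / (32 * K0) := by
          field_simp
          ring
        rw [h3, div_le_one (by positivity)]
        have h4 : a ^ 2 ≤ K0 := by rw [hK0]; nlinarith [sq_nonneg a]
        nlinarith [sq_nonneg (t - 2 * a)]
      linarith
    calc μ.real {x | ∃ i, M + t ≤ F i x} ≤ ∑ i, μ.real {x | M + t ≤ F i x} := hunion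
      _ ≤ ∑ i, exp (5 - (t - a) ^ 2 / (16 * K0)) * μ.real {x | M + a ≤ F i x} :=
          Finset.sum_le_sum fun i _ => hone i
      _ = exp (5 - (t - a) ^ 2 / (16 * K0)) * ∑ i, μ.real {x | M + a ≤ F i x} := by
          rw [Finset.mul_sum]
      _ ≤ (exp 6 * exp (-(t ^ 2 / (C * a ^ 2)))) * (2 * C0 * Γ) :=
          mul_le_mul hexp hsum2 (Finset.sum_nonneg fun i _ => measureReal_nonneg) (by positivity)
      _ = (2 * C0 * exp 6) * Γ * exp (-(t ^ 2 / (C * a ^ 2))) := by ring
      _ ≤ C * Γ * exp (-(t ^ 2 / (C * a ^ 2))) := by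
          refine mul_le_mul_of_nonneg_right (mul_le_mul_of_nonneg_right ?_ (by linarith))
            (exp_pos _).le
          rw [hC]
          linarith

theorem vec_of_bessel {N : ℕ} {F : Fin N → EuclideanSpace ℝ (Fin n) → ℝ} {Γ : ℝ} (M a : ℝ)
    (h : ∀ x y, ∑ i, (F i x - F i y) ^ 2 ≤ Γ * ‖x - y‖ ^ 2) :
    ∀ x y, ∑ i, (min (max (F i x - M) 0) a - min (max (F i y - M) 0) a) ^ 2 ≤
      Γ * ‖x - y‖ ^ 2 := by
  intro x y
  refine (Finset.sum_le_sum fun i _ => ?_).trans (h x y)
  rw [← sq_abs (F i x - F i y), ← sq_abs (min (max (F i x - M) 0) a - _)]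
  exact pow_le_pow_left₀ (abs_nonneg _) (clip_lip _ _ _ _) 2

theorem cnt {N : ℕ} (S : Set (Fin N)) (f : Fin N → ℝ) (h1 : ∀ i ∈ S, f i = 1)
    (h0 : ∀ i, i ∉ S → f i = 0) : ∑ i, f i = (S.ncard : ℝ) := by
  classical
  have h2 : ∑ i, f i = ∑ i, (if i ∈ S then (1:ℝ) else 0) := by
    refine Finset.sum_congr rfl fun i _ => ?_
    by_cases hi : i ∈ S
    · rw [h1 i hi, if_pos hi]
    · rw [h0 i hi, if_neg hi]
  rw [h2, Finset.sum_boole, Set.ncard_eq_toFinset_card']
  congr 2
  ext i
  simp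

theorem vec_of_overlap {N : ℕ} {F : Fin N → EuclideanSpace ℝ (Fin n) → ℝ} {Γ M a : ℝ}
    (ha : 0 < a) (hF : ∀ i, LipschitzWith 1 (F i))
    (h : ∀ x, (({i | M < F i x} : Set (Fin N)).ncard : ℝ) ≤ Γ) :
    ∀ x y, ∑ i, (min (max (F i x - M) 0) a - min (max (F i y - M) 0) a) ^ 2 ≤
      (2 * Γ) * ‖x - y‖ ^ 2 := by
  intro x y
  classical
  have hz : ∀ i z, ¬ M < F i z → min (max (F i z - M) 0) a = 0 := by
    intro i z hi
    rw [max_eq_right (by linarith [not_lt.1 hi]), min_eq_left ha.le]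
  have hpt : ∀ i, (min (max (F i x - M) 0) a - min (max (F i y - M) 0) a) ^ 2 ≤
      (({i | M < F i x} : Set (Fin N)).indicator (fun _ => (1:ℝ)) i +
        ({i | M < F i y} : Set (Fin N)).indicator (fun _ => (1:ℝ)) i) * ‖x - y‖ ^ 2 := by
    intro i
    have h1 : (min (max (F i x - M) 0) a - min (max (F i y - M) 0) a) ^ 2 ≤ ‖x - y‖ ^ 2 := by
      rw [← sq_abs (min (max (F i x - M) 0) a - _)]
      refine pow_le_pow_left₀ (abs_nonneg _) ((clip_lip _ _ _ _).trans ?_) 2
      have := (hF i).dist_le_mul x y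
      rw [Real.dist_eq, dist_eq_norm] at this
      simpa using this
    have h2 : ∀ z, 0 ≤ ({i | M < F i z} : Set (Fin N)).indicator (fun _ => (1:ℝ)) i := fun z =>
      indicator_nonneg (fun _ _ => zero_le_one) i
    have h3 : 0 ≤ ‖x - y‖ ^ 2 := by positivity
    by_cases hx : M < F i x
    · have h4 : ({i | M < F i x} : Set (Fin N)).indicator (fun _ => (1:ℝ)) i = 1 :=
        indicator_of_mem (s := {i | M < F i x}) hx _
      rw [h4]
      nlinarith [mul_nonneg (h2 y) h3]
    by_cases hy : M < F i y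
    · have h4 : ({i | M < F i y} : Set (Fin N)).indicator (fun _ => (1:ℝ)) i = 1 :=
        indicator_of_mem (s := {i | M < F i y}) hy _
      rw [h4]
      nlinarith [mul_nonneg (h2 x) h3]
    · rw [hz i x hx, hz i y hy]
      have := mul_nonneg (add_nonneg (h2 x) (h2 y)) h3
      simpa using this
  refine (Finset.sum_le_sum fun i _ => hpt i).trans ?_
  rw [← Finset.sum_mul, Finset.sum_add_distrib]
  rw [cnt {i | M < F i x} _ (fun i hi => indicator_of_mem hi _)
    (fun i hi => indicator_of_notMem hi _),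
    cnt {i | M < F i y} _ (fun i hi => indicator_of_mem hi _)
    (fun i hi => indicator_of_notMem hi _)]
  refine mul_le_mul_of_nonneg_right ?_ (by positivity)
  linarith [h x, h y]

/-- all three forms of the hypothesis -/
theorem maxima3 {C0 : ℝ} (hC0 : 0 < C0) (hQ : Q895.KLS C0) (hK : H607.KLS C0)
    [IsProbabilityMeasure μ] (hlc : HasLogConcaveDensity μ) {a : ℝ} (ha : 0 < a)
    (hsub : LinearlySubgaussian μ a) {N : ℕ} {F : Fin N → EuclideanSpace ℝ (Fin n) → ℝ}
    {Γ M C : ℝ} (hC : C = 2 * (2 * C0 * exp 6 + 128 * (8 * C0 + 26))) (hΓ : 1 ≤ Γ)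
    (hF : ∀ i, LipschitzWith 1 (F i)) (hc : ∀ i, ConcaveOn ℝ univ (F i))
    (hvec : (∀ x y, ∑ i, (F i x - F i y) ^ 2 ≤ Γ * ‖x - y‖ ^ 2) ∨
      (∀ x, (({i | M < F i x} : Set (Fin N)).ncard : ℝ) ≤ Γ) ∨
      (∀ x y, ∑ i, (min (max (F i x - M) 0) a - min (max (F i y - M) 0) a) ^ 2 ≤
        Γ * ‖x - y‖ ^ 2))
    (hM : 1 / 2 ≤ μ.real {x | ∀ i, F i x ≤ M}) {t : ℝ} (ht : 0 ≤ t) :
    μ.real {x | ∃ i, M + t ≤ F i x} ≤ C * Γ * exp (-(t ^ 2 / (C * a ^ 2))) := by
  obtain ⟨D, hD⟩ : ∃ D, D = 2 * C0 * exp 6 + 128 * (8 * C0 + 26) := ⟨_, rfl⟩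
  have hDp : 0 < D := by rw [hD]; positivity
  have h2 : ∀ x y, ∑ i, (min (max (F i x - M) 0) a - min (max (F i y - M) 0) a) ^ 2 ≤
      (2 * Γ) * ‖x - y‖ ^ 2 := by
    rcases hvec with h | h | h
    · intro x y
      refine (vec_of_bessel M a h x y).trans ?_
      exact mul_le_mul_of_nonneg_right (by linarith) (by positivity)
    · exact vec_of_overlap ha hF h
    · intro x y
      refine (h x y).trans ?_
      exact mul_le_mul_of_nonneg_right (by linarith) (by positivity)
  have h3 := maxima hC0 hQ hK hlc ha hsub (by linarith : 1 ≤ 2 * Γ) hF hc h2 hM ht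
  rw [← hD] at h3 hC
  refine h3.trans ?_
  have e1 : D * (2 * Γ) = C * Γ := by rw [hC]; ring
  rw [e1]
  refine mul_le_mul_of_nonneg_left ?_ (by rw [hC]; positivity)
  refine Real.exp_le_exp.2 (neg_le_neg ?_)
  refine div_le_div_of_nonneg_left (sq_nonneg t) (by positivity) ?_
  rw [hC]
  nlinarith [mul_pos hDp (sq_pos_of_pos ha)]

/-- unions of convex sets -/
theorem unions {C0 : ℝ} (hC0 : 0 < C0) (hQ : Q895.KLS C0) (hK : H607.KLS C0)
    [IsProbabilityMeasure μ] (hlc : HasLogConcaveDensity μ) {a : ℝ} (ha : 0 < a)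
    (hsub : LinearlySubgaussian μ a) {N : ℕ} {A : Fin N → Set (EuclideanSpace ℝ (Fin n))}
    {Γ r C : ℝ} (hC : C = 2 * (2 * C0 * exp 6 + 128 * (8 * C0 + 26))) (hΓ : 1 ≤ Γ)
    (hA : ∀ i, Convex ℝ (A i)) (hne : ∀ i, (A i).Nonempty) (hr : 0 ≤ r)
    (hov : ∀ x, (({i | x ∈ Metric.thickening r (A i)} : Set (Fin N)).ncard : ℝ) ≤ Γ)
    (hM : μ.real (⋃ i, Metric.thickening r (A i)) ≤ 1 / 2) :
    μ.real (⋃ i, A i) ≤ C * Γ * exp (-(r ^ 2 / (C * a ^ 2))) := by
  have hth : ∀ i x, x ∈ Metric.thickening r (A i) ↔ -r < -Metric.infDist x (A i) := by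
    intro i x
    rw [Metric.mem_thickening_iff_infDist_lt (hne i)]
    constructor <;> intro h <;> linarith
  have h1 := maxima3 (μ := μ) (N := N) (F := fun i x => -Metric.infDist x (A i)) (M := -r)
    hC0 hQ hK hlc ha hsub hC hΓ
    (fun i => by
      refine LipschitzWith.of_dist_le_mul fun x y => ?_
      have := (Metric.lipschitz_infDist_pt (A i)).dist_le_mul x y
      rwa [dist_neg_neg])
    (fun i => (H847.convexOn_infDist (hA i) (hne i)).neg)
    (Or.inr (Or.inl fun x => by
      have e : ({i | -r < -Metric.infDist x (A i)} : Set (Fin N)) =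
          {i | x ∈ Metric.thickening r (A i)} := by
        ext i
        exact (hth i x).symm
      rw [e]
      exact hov x))
    (by
      have e : {x | ∀ i, -Metric.infDist x (A i) ≤ -r} = (⋃ i, Metric.thickening r (A i))ᶜ := by
        ext x
        rw [mem_compl_iff, mem_iUnion, not_exists]
        constructor
        · intro h i hx
          exact absurd (h i) (not_le.2 ((hth i x).1 hx))
        · intro h i
          exact not_lt.1 fun hx => h i ((hth i x).2 hx)
      rw [e, probReal_compl_eq_one_sub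
        (isOpen_iUnion fun i => Metric.isOpen_thickening).measurableSet]
      linarith) hr
  refine le_trans (measureReal_mono (fun x hx => ?_) (measure_ne_top _ _)) h1
  obtain ⟨i, hi⟩ := mem_iUnion.1 hx
  refine ⟨i, ?_⟩
  show -r + r ≤ -Metric.infDist x (A i)
  rw [Metric.infDist_zero_of_mem hi]
  linarith

end Vale.Agent.P245.H471
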