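import Vale.Agent.P245.K.All
import Vale.Agent.P245.H471.MaxF

open MeasureTheory

namespace Vale.Agent.P245

/-- Gaussian upper tails for maxima of concave `1`-Lipschitz functions `F_i`, for which the vector
of the `F_i` is `√Γ`-Lipschitz into `ℓ_2`, or at most `Γ` of which exceed the level `M` at each point,
or for which the vector of the `F_i` clipped to `[M, M + a]` is `√Γ`-Lipschitz into `ℓ_2`. -/
def ConcaveMaxima {n : ℕ} (μ : Measure (EuclideanSpace ℝ (Fin n))) (a C : ℝ) : Prop :=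
  ∀ (N : ℕ) (Γ : ℝ), 1 ≤ Γ → ∀ (F : Fin N → EuclideanSpace ℝ (Fin n) → ℝ) (M : ℝ),
    (∀ i, LipschitzWith 1 (F i)) → (∀ i, ConcaveOn ℝ Set.univ (F i)) →
    ((∀ x y, ∑ i, (F i x - F i y) ^ 2 ≤ Γ * ‖x - y‖ ^ 2) ∨
      (∀ x, (({i | M < F i x} : Set (Fin N)).ncard : ℝ) ≤ Γ) ∨
      (∀ x y, ∑ i, (min (max (F i x - M) 0) a - min (max (F i y - M) 0) a) ^ 2 ≤
        Γ * ‖x - y‖ ^ 2)) →
    1 / 2 ≤ μ.real {x | ∀ i, F i x ≤ M} →
    ∀ t : ℝ, 0 ≤ t →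
      μ.real {x | ∃ i, M + t ≤ F i x} ≤ C * Γ * Real.exp (-(t ^ 2 / (C * a ^ 2)))

/-- Gaussian concentration for unions of convex sets whose `r`-neighbourhoods have overlap at
most `Γ`. -/
def ConvexUnions {n : ℕ} (μ : Measure (EuclideanSpace ℝ (Fin n))) (a C : ℝ) : Prop :=
  ∀ (N : ℕ) (Γ : ℝ), 1 ≤ Γ → ∀ A : Fin N → Set (EuclideanSpace ℝ (Fin n)),
    (∀ i, Convex ℝ (A i)) → (∀ i, (A i).Nonempty) → ∀ r : ℝ, 0 ≤ r →
    (∀ x, (({i | x ∈ Metric.thickening r (A i)} : Set (Fin N)).ncard : ℝ) ≤ Γ) →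
    μ.real (⋃ i, Metric.thickening r (A i)) ≤ 1 / 2 →
      μ.real (⋃ i, A i) ≤ C * Γ * Real.exp (-(r ^ 2 / (C * a ^ 2)))

namespace H471

theorem mono_rhs {C0 C Γ t a : ℝ} (h0 : 0 < C0) (h : C0 ≤ C) (hΓ : 1 ≤ Γ) (ha : 0 < a) :
    C0 * Γ * Real.exp (-(t ^ 2 / (C0 * a ^ 2))) ≤ C * Γ * Real.exp (-(t ^ 2 / (C * a ^ 2))) := by
  have hC : 0 < C := h0.trans_le h
  have h1 : C0 * Γ ≤ C * Γ := mul_le_mul_of_nonneg_right h (by linarith)
  refine mul_le_mul h1 (Real.exp_le_exp.2 (neg_le_neg ?_)) (Real.exp_pos _).le (by positivity)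
  exact div_le_div_of_nonneg_left (sq_nonneg t) (by positivity)
    (mul_le_mul_of_nonneg_right h (by positivity))

/-- plug: both properties, for all large constants -/
theorem plug : ∃ D : ℝ, 0 < D ∧ ∀ (n : ℕ) (μ : Measure (EuclideanSpace ℝ (Fin n)))
    [IsProbabilityMeasure μ], HasLogConcaveDensity μ → ∀ a : ℝ, 0 < a → LinearlySubgaussian μ a →
    ∀ C : ℝ, D ≤ C → ConcaveMaxima μ a C ∧ ConvexUnions μ a C := by
  obtain ⟨C0, hC0, hK⟩ := K.kls_final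
  refine ⟨2 * (2 * C0 * Real.exp 6 + 128 * (8 * C0 + 26)), by positivity, ?_⟩
  intro n μ _ hlc a ha hsub C hC
  refine ⟨fun N Γ hΓ F M hF hc hvec hM t ht => ?_, fun N Γ hΓ A hA hne r hr hov hM => ?_⟩
  · exact (H471.maxima3 hC0 hK hK hlc ha hsub rfl hΓ hF hc hvec hM ht).trans
      (mono_rhs (by positivity) hC hΓ ha)
  · exact (H471.unions hC0 hK hK hlc ha hsub rfl hΓ hA hne hr hov hM).trans
      (mono_rhs (by positivity) hC hΓ ha)

end H471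

end Vale.Agent.P245
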